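import Vale.Agent.P290.R2.H596.Spec3
import Vale.Agent.P290.R2.H762.Vol

/-! Row S5: volume preserving local biholomorphisms from large polydiscs into surfaces with
holomorphic maps to Riemann surfaces, by Hamiltonian flows. -/

open Set Filter Metric
open scoped Manifold ContDiff Topology

namespace Vale.Agent.P290.R2.H848

open Vale.Agent.P290 Vale.Agent.P290.K Vale.Agent.P290.H580 Vale.Agent.P290.H805
open Vale.Agent.P290.R2.H596

/-- the Hamiltonian flow with initial points on an affine disc in a chart: with the time divided by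
the derivative of the Hamiltonian along the disc it preserves the volume form -/
theorem flow_jac {X C : Type} [TopologicalSpace X] [ChartedSpace C2 X]
    [IsManifold 𝓘(ℂ, C2) 1 X] (W : VolForm X) [TopologicalSpace C] [ChartedSpace ℂ C]
    [IsManifold 𝓘(ℂ) 1 C] {π : X → C} (hπ : MDifferentiable 𝓘(ℂ, C2) 𝓘(ℂ) π)
    {t : OpenPartialHomeomorph C ℂ} (ht : t ∈ atlas ℂ C) {U₁ : Set X} (hU₁ : IsOpen U₁)
    {φ : X → ℂ → X} (hφ : GlobF (π ⁻¹' t.source) (ham W π t) U₁ φ)
    {e : OpenPartialHomeomorph X C2} (he : e ∈ atlas C2 X) (p u : C2) (J : ℂ → ℂ) (y : C2)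
    (hJ : DifferentiableAt ℂ J y.1) (hJ0 : J y.1 ≠ 0) (hy : p + y.1 • u ∈ e.target)
    (hyU : e.symm (p + y.1 • u) ∈ U₁) (hyt : π (e.symm (p + y.1 • u)) ∈ t.source)
    (hJe : fderiv ℂ (hloc π t e) (p + y.1 • u) u = J y.1) {G : C2 → X}
    (hGdef : G = fun z => φ (e.symm (p + z.1 • u)) (-(z.2) / J z.1)) :
    MDifferentiableAt 𝓘(ℂ, C2) 𝓘(ℂ, C2) G y ∧
      ∀ e' ∈ atlas C2 X, G y ∈ e'.source → DifferentiableAt ℂ (fun z => e' (G z)) y ∧
        W.coef e' (e' (G y)) * (fderiv ℂ (fun z => e' (G z)) y).det = 1 := by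
  have hin : DifferentiableAt ℂ (fun z : C2 => p + z.1 • u) y := by fun_prop
  have hsy : MDifferentiableAt 𝓘(ℂ, C2) 𝓘(ℂ, C2) (fun z : C2 => e.symm (p + z.1 • u)) y :=
    (mdifferentiableAt_atlas_symm (I := 𝓘(ℂ, C2)) he hy).comp y hin.mdifferentiableAt
  have hG : MDifferentiableAt 𝓘(ℂ, C2) 𝓘(ℂ, C2) G y := by
    rw [hGdef]
    refine hφ.hol C2 (fun z => e.symm (p + z.1 • u)) (fun z => -(z.2) / J z.1) y hsy ?_ hyU
    have h3 : DifferentiableAt ℂ (fun z : C2 => J z.1) y :=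
      DifferentiableAt.comp (f := fun z : C2 => z.1) (g := J) y hJ differentiableAt_fst
    have h4 : DifferentiableAt ℂ (fun z : C2 => (J z.1)⁻¹) y :=
      DifferentiableAt.comp (f := fun z : C2 => J z.1) (g := fun s : ℂ => s⁻¹) y
        (differentiableAt_inv hJ0) h3
    have h5 : DifferentiableAt ℂ (fun z : C2 => -(z.2) * (J z.1)⁻¹) y :=
      DifferentiableAt.fun_mul (differentiableAt_snd.fun_neg) h4
    simpa only [div_eq_mul_inv] using h5
  refine ⟨hG, fun e' he' hs => ?_⟩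
  have hA : DifferentiableAt ℂ (fun z => e' (G z)) y :=
    ((mdifferentiableAt_atlas (I := 𝓘(ℂ, C2)) he' hs).comp y hG).differentiableAt
  refine ⟨hA, ?_⟩
  set A := fderiv ℂ (fun z => e' (G z)) y with hAdef
  have hGy : G y = φ (e.symm (p + y.1 • u)) (-(y.2) / J y.1) := by rw [hGdef]
  have hE2 : A E2 = (-1 / J y.1) • ham W π t e' (e' (G y)) := by
    have h1 : HasDerivAt (fun s : ℂ => ((y.1, s) : C2)) E2 y.2 :=
      (hasDerivAt_const y.2 y.1).prodMk (hasDerivAt_id y.2)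
    have h2 : HasDerivAt (fun s : ℂ => e' (G (y.1, s))) (A E2) y.2 :=
      HasFDerivAt.comp_hasDerivAt (l := fun z => e' (G z)) (f := fun s : ℂ => ((y.1, s) : C2))
        y.2 hA.hasFDerivAt h1
    have h4 : HasDerivAt (fun s => e' (φ (e.symm (p + y.1 • u)) s)) (ham W π t e' (e' (G y)))
        (-(y.2) / J y.1) := by
      have h := (hφ.ic _ hyU (-(y.2) / J y.1)).2.2 e' he' (by rw [← hGy]; exact hs)
      rw [← hGy] at h
      exact h
    have h5 : HasDerivAt (fun s : ℂ => -s / J y.1) (-1 / J y.1) y.2 :=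
      ((hasDerivAt_id y.2).neg).div_const (J y.1)
    have h6 := HasDerivAt.scomp y.2 h4 h5
    refine h2.unique (h6.congr_of_eventuallyEq (Eventually.of_forall fun s => ?_))
    simp only [Function.comp_apply, hGdef]
  have hGt : π (G y) ∈ t.source := (hφ.ic _ hyU (-(y.2) / J y.1)).2.1 |> fun h => by
    rw [hGy]; exact h
  have hE1 : fderiv ℂ (hloc π t e') (e' (G y)) (A E1) = J y.1 := by
    have h0 : HasDerivAt (fun s : ℂ => ((s, y.2) : C2)) E1 y.1 :=
      (hasDerivAt_id y.1).prodMk (hasDerivAt_const y.1 y.2)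
    have h1 : ∀ᶠ z in 𝓝 y, hloc π t e' (e' (G z)) = hloc π t e (p + z.1 • u) := by
      filter_upwards [hG.continuousAt.preimage_mem_nhds (e'.open_source.mem_nhds hs),
        hsy.continuousAt.preimage_mem_nhds (hU₁.mem_nhds hyU)] with z hz1 hz2
      have hz1' : G z ∈ e'.source := hz1
      have h7 : π (G z) = π (e.symm (p + z.1 • u)) := by
        rw [hGdef]
        exact GlobF.pi_eq W hπ ht hφ hz2 _
      simp only [hloc, e'.left_inv hz1', h7]
    have h2 : HasDerivAt (fun s : ℂ => e' (G (s, y.2))) (A E1) y.1 :=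
      HasFDerivAt.comp_hasDerivAt (l := fun z => e' (G z)) (f := fun s : ℂ => ((s, y.2) : C2))
        y.1 hA.hasFDerivAt h0
    have hd : DifferentiableAt ℂ (hloc π t e') (e' (G y)) :=
      hloc_diff hπ ht he' (e'.map_source hs) (by rw [e'.left_inv hs]; exact hGt)
    have h3 : HasDerivAt (fun s : ℂ => hloc π t e' (e' (G (s, y.2))))
        (fderiv ℂ (hloc π t e') (e' (G y)) (A E1)) y.1 :=
      HasFDerivAt.comp_hasDerivAt (l := hloc π t e') (f := fun s : ℂ => e' (G (s, y.2)))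
        y.1 hd.hasFDerivAt h2
    have h4 : HasDerivAt (fun s : ℂ => p + s • u) u y.1 := by
      have h := ((hasDerivAt_id y.1).smul_const u).const_add p
      rw [one_smul] at h
      exact h
    have hd2 : DifferentiableAt ℂ (hloc π t e) (p + y.1 • u) := hloc_diff hπ ht he hy hyt
    have h5 : HasDerivAt (fun s : ℂ => hloc π t e (p + s • u))
        (fderiv ℂ (hloc π t e) (p + y.1 • u) u) y.1 :=
      HasFDerivAt.comp_hasDerivAt (l := hloc π t e) (f := fun s : ℂ => p + s • u)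
        y.1 hd2.hasFDerivAt h4
    have h6 : (fun s : ℂ => hloc π t e' (e' (G (s, y.2)))) =ᶠ[𝓝 y.1]
        fun s => hloc π t e (p + s • u) := by
      have hc : ContinuousAt (fun s : ℂ => ((s, y.2) : C2)) y.1 := by fun_prop
      exact hc.eventually h1
    rw [← hJe]
    exact h3.unique (h5.congr_of_eventuallyEq h6)
  have h1 : A.det = area (A E1) (A E2) := by
    rw [area_map]
    simp only [area, E1, E2, mul_one, mul_zero, sub_zero]
  have hc : W.coef e' (e' (G y)) ≠ 0 := W.ne_zero e' he' _ (e'.map_source hs)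
  have h2 := ham_spec W (π := π) (t := t) hc (A E1)
  rw [hE1] at h2
  rw [h1, hE2, area_smul_right, area_swap]
  have h3 : W.coef e' (e' (G y)) * (-1 / J y.1 * -area (ham W π t e' (e' (G y))) (A E1)) =
      (W.coef e' (e' (G y)) * area (ham W π t e' (e' (G y))) (A E1)) / J y.1 := by
    ring
  rw [h3, h2, div_self hJ0]

theorem symExist : StSymExist := by
  intro T E _ _ F vol hvol t₀ hT2 hcpt x ⟨C, π, hπh, hcr⟩ R hR
  have hC2 := C.t2
  have hCm := C.manifold
  have hCm1 : IsManifold 𝓘(ℂ) 1 C.C := IsManifold.of_le (n := ω) (by simp)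
  have hXm1 : IsManifold 𝓘(ℂ, C2) 1 (Fib F t₀) := IsManifold.of_le (n := ω) (by simp)
  have hCl : LocallyCompactSpace C.C := ChartedSpace.locallyCompactSpace ℂ C.C
  have hπ : MDifferentiable 𝓘(ℂ, C2) 𝓘(ℂ) π := fun y => (hπh y).md
  set W := Vale.Agent.P290.R2.H762.volForm hvol t₀ with hW
  set t := chartAt ℂ (π x) with htdef
  have ht : t ∈ atlas ℂ C.C := chart_mem_atlas ℂ _
  obtain ⟨K, hK, hxK, hKt⟩ := exists_compact_subset t.open_source (mem_chart_source ℂ (π x))
  obtain ⟨φ, hφ⟩ := exists_ham_globF W hπ ht hK hKt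
  set e := chartAt C2 x with hedef
  have he : e ∈ atlas C2 (Fib F t₀) := chart_mem_atlas C2 _
  have hxe : x ∈ e.source := mem_chart_source C2 x
  have hyx : e x ∈ e.target := e.map_source hxe
  have hsx : e.symm (e x) = x := e.left_inv hxe
  set S := e.target ∩ e.symm ⁻¹' (π ⁻¹' t.source) with hS
  have hSo : IsOpen S := e.isOpen_inter_preimage_symm (t.open_source.preimage hπ.continuous)
  set S' := e.target ∩ e.symm ⁻¹' (π ⁻¹' interior K) with hS'
  have hS'o : IsOpen S' := e.isOpen_inter_preimage_symm (isOpen_interior.preimage hπ.continuous)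
  have hS'S : S' ⊆ S := fun v hv => ⟨hv.1, hKt (interior_subset hv.2)⟩
  have hxS' : e x ∈ S' := ⟨hyx, by
    show π (e.symm (e x)) ∈ interior K
    rw [hsx]; exact hxK⟩
  have hdS : DifferentiableOn ℂ (hloc π t e) S :=
    fun y hy => (hloc_diff hπ ht he hy.1 hy.2).differentiableWithinAt
  obtain ⟨u₀, hu₀⟩ : ∃ u₀ : C2, fderiv ℂ (hloc π t e) (e x) u₀ ≠ 0 := by
    by_contra hall
    push Not at hall
    refine hcr ?_
    intro e1 t1 y1 he1 ht1 hy1
    have he1' : e1 = e := he1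
    have ht1' : t1 = t := ht1
    subst he1' ht1' hy1
    have hd : DifferentiableAt ℂ (hloc π t e) (e x) := hloc_diff hπ ht he hyx (by
      rw [hsx]; exact mem_chart_source ℂ (π x))
    constructor
    · have h0 : HasDerivAt (fun s : ℂ => ((s, (e x).2) : C2)) E1 (e x).1 :=
        (hasDerivAt_id (e x).1).prodMk (hasDerivAt_const (e x).1 (e x).2)
      have h1 : HasDerivAt (fun s : ℂ => hloc π t e (s, (e x).2))
          (fderiv ℂ (hloc π t e) (e x) E1) (e x).1 :=
        HasFDerivAt.comp_hasDerivAt (l := hloc π t e) (f := fun s : ℂ => ((s, (e x).2) : C2))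
          (e x).1 hd.hasFDerivAt h0
      rw [hall] at h1
      exact h1.deriv
    · have h0 : HasDerivAt (fun s : ℂ => (((e x).1, s) : C2)) E2 (e x).2 :=
        (hasDerivAt_const (e x).2 (e x).1).prodMk (hasDerivAt_id (e x).2)
      have h1 : HasDerivAt (fun s : ℂ => hloc π t e ((e x).1, s))
          (fderiv ℂ (hloc π t e) (e x) E2) (e x).2 :=
        HasFDerivAt.comp_hasDerivAt (l := hloc π t e) (f := fun s : ℂ => (((e x).1, s) : C2))
          (e x).2 hd.hasFDerivAt h0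
      rw [hall] at h1
      exact h1.deriv
  have hcont : ContinuousAt (fun v => fderiv ℂ (hloc π t e) v u₀) (e x) :=
    ((differentiableOn_fderiv_apply hSo hdS u₀).differentiableAt
      (hSo.mem_nhds (hS'S hxS'))).continuousAt
  have hO : ∀ᶠ v in 𝓝 (e x), v ∈ S' ∧ fderiv ℂ (hloc π t e) v u₀ ≠ 0 :=
    Filter.Eventually.and (hS'o.mem_nhds hxS') (hcont.eventually_ne hu₀)
  obtain ⟨r, hr, hball⟩ := Metric.eventually_nhds_iff_ball.1 hO
  -- the direction
  obtain ⟨δ, hδ0, hδ⟩ : ∃ δ : ℝ, 0 < δ ∧ (R + 1) * (δ * ‖u₀‖) < r := by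
    refine ⟨r / ((R + 1) * (‖u₀‖ + 1)), by positivity, ?_⟩
    have h1 : 0 < ‖u₀‖ + 1 := by positivity
    have h2 : (R + 1) * (r / ((R + 1) * (‖u₀‖ + 1)) * ‖u₀‖) = r * (‖u₀‖ / (‖u₀‖ + 1)) := by
      field_simp
    rw [h2]
    have h3 : ‖u₀‖ / (‖u₀‖ + 1) < 1 := by
      rw [div_lt_one h1]; linarith
    nlinarith
  set u₁ : C2 := ((δ : ℂ)) • u₀ with hu₁
  have hδc : (δ : ℂ) ≠ 0 := by exact_mod_cast hδ0.ne'
  have hin : ∀ ζ : ℂ, ‖ζ‖ ≤ R → e x + ζ • u₁ ∈ ball (e x) r := by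
    intro ζ hζ
    rw [mem_ball, dist_self_add_left, norm_smul, hu₁, norm_smul, Complex.norm_real,
      Real.norm_eq_abs, abs_of_pos hδ0]
    have h1 : 0 ≤ δ * ‖u₀‖ := by positivity
    nlinarith
  set J : ℂ → ℂ := fun ζ => fderiv ℂ (hloc π t e) (e x + ζ • u₁) u₁ with hJdef
  have hJd : ∀ ζ : ℂ, ‖ζ‖ ≤ R → DifferentiableAt ℂ J ζ := by
    intro ζ hζ
    have h1 : DifferentiableAt ℂ (fun v => fderiv ℂ (hloc π t e) v u₁) (e x + ζ • u₁) :=
      (differentiableOn_fderiv_apply hSo hdS u₁).differentiableAt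
        (hSo.mem_nhds (hS'S (hball _ (hin ζ hζ)).1))
    have h2 : DifferentiableAt ℂ (fun ζ : ℂ => e x + ζ • u₁) ζ := by fun_prop
    exact DifferentiableAt.comp (f := fun ζ : ℂ => e x + ζ • u₁)
      (g := fun v => fderiv ℂ (hloc π t e) v u₁) ζ h1 h2
  have hJ0 : ∀ ζ : ℂ, ‖ζ‖ ≤ R → J ζ ≠ 0 := by
    intro ζ hζ
    simp only [hJdef]
    rw [hu₁, map_smul, smul_eq_mul]
    exact mul_ne_zero hδc (hball _ (hin ζ hζ)).2
  set G : C2 → Fib F t₀ := fun z => φ (e.symm (e x + z.1 • u₁)) (-(z.2) / J z.1) with hG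
  have key : ∀ y ∈ closedBall (0 : C2) R, MDifferentiableAt 𝓘(ℂ, C2) 𝓘(ℂ, C2) G y ∧
      ∀ e' ∈ atlas C2 (Fib F t₀), G y ∈ e'.source → DifferentiableAt ℂ (fun z => e' (G z)) y ∧
        W.coef e' (e' (G y)) * (fderiv ℂ (fun z => e' (G z)) y).det = 1 := by
    intro y hy
    have hy1 : ‖y.1‖ ≤ R := by
      rw [mem_closedBall_zero_iff] at hy
      exact (norm_fst_le y).trans hy
    have h1 := hball _ (hin y.1 hy1)
    exact flow_jac W hπ ht (isOpen_interior.preimage hπ.continuous) hφ he (e x) u₁ J y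
      (hJd _ hy1) (hJ0 _ hy1) h1.1.1 h1.1.2 (hKt (interior_subset h1.1.2)) rfl hG
  refine ⟨fun z => (G z).1, ?_, ?_⟩
  · have h1 : G 0 = x := by
      simp only [hG, Prod.fst_zero, Prod.snd_zero, zero_smul, add_zero, neg_zero, zero_div, hsx]
      exact hφ.zero x hxK
    show (G 0).1 = x.1
    rw [h1]
  · intro y hy
    obtain ⟨h1, h2⟩ := key y hy
    obtain ⟨h3, h4⟩ := h2 (fibChart F t₀ (G y)) (chart_mem_atlas C2 (G y))
      (mem_chart_source C2 (G y))
    refine ⟨⟨Eventually.of_forall fun z => (G z).2,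
      continuous_val.continuousAt.comp h1.continuousAt, h3⟩, ?_⟩
    rw [hW, Vale.Agent.P290.R2.H762.volForm_coef hvol t₀ (G y)
      ((fibChart F t₀ (G y)).map_source (mem_chart_source C2 (G y)))] at h4
    exact h4

end Vale.Agent.P290.R2.H848
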